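import Vale.Agent.P083.Defs
import Vale.Agent.P083.Model

namespace Vale.Agent.Results.P083.KEP

open Vale.Agent.P083

universe u

/-- Negative answer to Kirchberg's embedding problem: there is a nonzero separable unital
C*-algebra `A` such that for every unital C*-algebra `O` generated by two isometries `s₁, s₂` with
`s₁ s₁* + s₂ s₂* = 1` (in particular the Cuntz algebra `O₂`) and every free ultrafilter `ω` on `ℕ`,
no unital *-homomorphism from `A` to the norm ultrapower `O^ω` is injective, and no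
*-homomorphism from `A` to `O^ω`, unital or not, is injective. -/
theorem result :
    ∃ (A : Type) (_ : CStarAlgebra A), Nontrivial A ∧ TopologicalSpace.SeparableSpace A ∧
      ∀ (O : Type u) [CStarAlgebra O] (s₁ s₂ : O),
        star s₁ * s₁ = 1 → star s₂ * s₂ = 1 → s₁ * star s₁ + s₂ * star s₂ = 1 →
        (StarAlgebra.adjoin ℂ ({s₁, s₂} : Set O)).topologicalClosure = ⊤ →
        ∀ ω : Ultrafilter ℕ, (ω : Filter ℕ) ≤ Filter.cofinite →
          (∀ φ : StarAlgHom ℂ A (Ultrapower O ω), ¬ Function.Injective φ) ∧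
          (∀ φ : NonUnitalStarAlgHom ℂ A (Ultrapower O ω), ¬ Function.Injective φ) := by
  obtain ⟨A, hA, hnt, hsep, h⟩ := exists_nonembeddable.{u}
  refine ⟨A, hA, hnt, hsep, fun O _ s₁ s₂ h₁ h₂ h₃ hgen ω _ => ?_⟩
  have hgen' : (StarAlgebra.adjoin ℂ (Set.range ![s₁, s₂])).topologicalClosure = ⊤ := by
    rw [← hgen]
    congr 2
    ext x
    simp [or_comm]
  have key := h O ![s₁, s₂] (cuntzFam_of h₁ h₂ h₃) hgen' ω
  exact ⟨fun φ => key φ.toNonUnitalStarAlgHom, key⟩

end Vale.Agent.Results.P083.KEP
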